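import Vale.Agent.P224.Defs

namespace Vale.Agent.P224

open Real Set

noncomputable def G (x : ℝ) : ℝ := ((x + 2) * log (x + 2) - x * log x) / 2 - log (x + 1)

noncomputable def G1 (x : ℝ) : ℝ := (log (x + 2) - log x) / 2 - (x + 1)⁻¹

lemma hasDerivAt_G {x : ℝ} (hx : 0 < x) : HasDerivAt G (G1 x) x := by
  have h1 : HasDerivAt (fun y : ℝ => (y + 2) * log (y + 2)) (log (x + 2) + 1) x := by
    have := (Real.hasDerivAt_mul_log (x := x + 2) (by positivity)).comp_add_const x 2
    simpa using this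
  have h2 : HasDerivAt (fun y : ℝ => y * log y) (log x + 1) x :=
    Real.hasDerivAt_mul_log hx.ne'
  have h3 : HasDerivAt (fun y : ℝ => log (y + 1)) ((x + 1)⁻¹) x := by
    have := (Real.hasDerivAt_log (x := x + 1) (by positivity)).comp_add_const x 1
    simpa using this
  have := ((h1.fun_sub h2).div_const 2).fun_sub h3
  refine HasDerivAt.congr_deriv (f := G) this ?_
  unfold G1
  ring

lemma hasDerivAt_G1 {x : ℝ} (hx : 0 < x) :
    HasDerivAt G1 (((x + 2)⁻¹ - x⁻¹) / 2 + ((x + 1) ^ 2)⁻¹) x := by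
  have h1 : HasDerivAt (fun y : ℝ => log (y + 2)) ((x + 2)⁻¹) x := by
    have := (Real.hasDerivAt_log (x := x + 2) (by positivity)).comp_add_const x 2
    simpa using this
  have h2 : HasDerivAt (fun y : ℝ => log y) (x⁻¹) x := Real.hasDerivAt_log hx.ne'
  have h3 : HasDerivAt (fun y : ℝ => (y + 1)⁻¹) (-((x + 1) ^ 2)⁻¹) x := by
    have := (hasDerivAt_inv (x := x + 1) (by positivity)).comp_add_const x 1
    simpa using this
  have := ((h1.fun_sub h2).div_const 2).fun_sub h3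
  refine HasDerivAt.congr_deriv (f := G1) this ?_
  ring

lemma G1_deriv_neg {x : ℝ} (hx : 0 < x) : ((x + 2)⁻¹ - x⁻¹) / 2 + ((x + 1) ^ 2)⁻¹ < 0 := by
  have : ((x + 2)⁻¹ - x⁻¹) / 2 + ((x + 1) ^ 2)⁻¹ = -(x * (x + 2) * (x + 1) ^ 2)⁻¹ := by
    field_simp
    ring
  rw [this]
  have : 0 < (x * (x + 2) * (x + 1) ^ 2)⁻¹ := by positivity
  linarith

lemma strictAntiOn_G1 : StrictAntiOn G1 (Ioi 0) := by
  apply strictAntiOn_of_deriv_neg (convex_Ioi 0)
  · intro x hx
    exact (hasDerivAt_G1 hx).continuousAt.continuousWithinAt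
  · intro x hx
    rw [interior_Ioi] at hx
    rw [(hasDerivAt_G1 hx).deriv]
    exact G1_deriv_neg hx

lemma strictConcaveOn_G : StrictConcaveOn ℝ (Ioi 0) G := by
  apply StrictAntiOn.strictConcaveOn_of_deriv (convex_Ioi 0)
  · intro x hx
    exact (hasDerivAt_G hx).continuousAt.continuousWithinAt
  · rw [interior_Ioi]
    intro x hx y hy hxy
    rw [(hasDerivAt_G hx).deriv, (hasDerivAt_G hy).deriv]
    exact strictAntiOn_G1 hx hy hxy

lemma G_midpoint {x : ℝ} (hx : 0 < x) : G x + G (x + 2) < 2 * G (x + 1) := by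
  have hx2 : x + 2 ∈ Ioi (0 : ℝ) := by
    simp only [mem_Ioi]; positivity
  have hne : x ≠ x + 2 := by linarith
  have hc := strictConcaveOn_G.2
  have h := @hc x (mem_Ioi.2 hx) (x + 2) hx2 hne (1 / 2) (1 / 2)
    (by norm_num) (by norm_num) (by norm_num)
  simp only [smul_eq_mul] at h
  have e : 1 / 2 * x + 1 / 2 * (x + 2) = x + 1 := by ring
  rw [e] at h
  linarith

end Vale.Agent.P224
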