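import Mathlib

namespace Vale.Agent.P224

open MeasureTheory

noncomputable def sphereVol (n : ℕ) : ℝ :=
  ((volume : Measure (EuclideanSpace ℝ (Fin (n + 1)))).toSphere Set.univ).toReal

noncomputable def cliffordVol (m k : ℕ) : ℝ :=
  ((k : ℝ) / m) ^ ((k : ℝ) / 2) * (((m : ℝ) - k) / m) ^ (((m : ℝ) - k) / 2) *
    sphereVol k * sphereVol (m - k)

end Vale.Agent.P224
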