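import Vale.Agent.P224.Convex

namespace Vale.Agent.P224

open Real Set

noncomputable def gam (k : ℕ) : ℝ := log (Gamma (((k : ℝ) + 1) / 2))

noncomputable def lam (k : ℕ) : ℝ := (k : ℝ) * log k / 2 - gam k

noncomputable def del (k : ℕ) : ℝ := lam (k + 2) - 2 * lam (k + 1) + lam k

lemma gam_add_two (k : ℕ) : gam (k + 2) = gam k + log (((k : ℝ) + 1) / 2) := by
  unfold gam
  have h0 : (0 : ℝ) < ((k : ℝ) + 1) / 2 := by positivity
  have e : (((k + 2 : ℕ) : ℝ) + 1) / 2 = ((k : ℝ) + 1) / 2 + 1 := by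
    push_cast; ring
  rw [e, Real.Gamma_add_one h0.ne', Real.log_mul h0.ne' (Real.Gamma_pos_of_pos h0).ne']
  ring

lemma gam_mid (k : ℕ) : 2 * gam (k + 1) ≤ gam k + gam (k + 2) := by
  have hc := Real.convexOn_log_Gamma.2
  have h1 : (0 : ℝ) < ((k : ℝ) + 1) / 2 := by positivity
  have h2 : (0 : ℝ) < (((k + 2 : ℕ) : ℝ) + 1) / 2 := by positivity
  have h := @hc _ (mem_Ioi.2 h1) _ (mem_Ioi.2 h2) (1 / 2) (1 / 2) (by norm_num) (by norm_num)
    (by norm_num)
  simp only [smul_eq_mul, Function.comp] at h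
  have e : 1 / 2 * (((k : ℝ) + 1) / 2) + 1 / 2 * ((((k + 2 : ℕ) : ℝ) + 1) / 2) =
      (((k + 1 : ℕ) : ℝ) + 1) / 2 := by
    push_cast; ring
  rw [e] at h
  unfold gam
  linarith

lemma lam_add_two {k : ℕ} (hk : 1 ≤ k) : lam (k + 2) - lam k = G k + log 2 := by
  have hk0 : (0 : ℝ) < k := by exact_mod_cast hk
  unfold lam G
  rw [gam_add_two, Real.log_div (by positivity) (by norm_num)]
  push_cast
  ring

lemma del_anti {k : ℕ} (hk : 1 ≤ k) : del (k + 2) < del k := by
  have hk0 : (0 : ℝ) < k := by exact_mod_cast hk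
  have h0 := lam_add_two hk
  have h1 := lam_add_two (k := k + 1) (by omega)
  have h2 := lam_add_two (k := k + 2) (by omega)
  have hG := G_midpoint hk0
  push_cast at h1 h2
  have e1 : (k : ℝ) + 1 + 1 = k + 2 := by ring
  unfold del
  have a1 : k + 2 + 2 = k + 4 := rfl
  have a2 : k + 2 + 1 = k + 3 := rfl
  have a3 : k + 1 + 2 = k + 3 := rfl
  rw [a1] at h2 ⊢
  rw [a2]
  rw [a3] at h1
  linarith

lemma mul_log_mid (i : ℕ) :
    2 * (((i + 1 : ℕ) : ℝ) * log ((i + 1 : ℕ) : ℝ)) ≤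
      (i : ℝ) * log i + ((i + 2 : ℕ) : ℝ) * log ((i + 2 : ℕ) : ℝ) := by
  have hc := Real.convexOn_mul_log.2
  have h1 : (0 : ℝ) ≤ (i : ℝ) := by positivity
  have h2 : (0 : ℝ) ≤ ((i + 2 : ℕ) : ℝ) := by positivity
  have h := @hc _ (mem_Ici.2 h1) _ (mem_Ici.2 h2) (1 / 2) (1 / 2) (by norm_num) (by norm_num)
    (by norm_num)
  simp only [smul_eq_mul] at h
  have e : 1 / 2 * (i : ℝ) + 1 / 2 * ((i + 2 : ℕ) : ℝ) = ((i + 1 : ℕ) : ℝ) := by
    push_cast; ring
  rw [e] at h
  linarith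

lemma del_lower (i : ℕ) : -(1 / ((i : ℝ) + 1)) ≤ del i := by
  have hm := mul_log_mid i
  have g1 := gam_mid (i + 1)
  have g2 := gam_add_two i
  have g3 := gam_add_two (i + 1)
  have a3 : i + 1 + 2 = i + 3 := rfl
  have a2 : i + 1 + 1 = i + 2 := rfl
  rw [a3] at g1 g3
  rw [a2] at g1
  have hl : log ((((i + 1 : ℕ) : ℝ) + 1) / 2) - log (((i : ℝ) + 1) / 2) ≤ 1 / ((i : ℝ) + 1) := by
    rw [← Real.log_div (by positivity) (by positivity)]
    have hpos : (0 : ℝ) < ((((i + 1 : ℕ) : ℝ) + 1) / 2) / (((i : ℝ) + 1) / 2) := by positivity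
    have := Real.log_le_sub_one_of_pos hpos
    have e : ((((i + 1 : ℕ) : ℝ) + 1) / 2) / (((i : ℝ) + 1) / 2) - 1 = 1 / ((i : ℝ) + 1) := by
      push_cast
      field_simp
      ring
    linarith
  unfold del lam
  linarith

lemma del_le_of_even {k : ℕ} (hk : 1 ≤ k) (j : ℕ) : del (k + 2 * j) ≤ del k := by
  induction j with
  | zero => simp
  | succ j ih =>
    have := del_anti (k := k + 2 * j) (by omega)
    have e : k + 2 * (j + 1) = k + 2 * j + 2 := by ring
    rw [e]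
    linarith

lemma del_nonneg {k : ℕ} (hk : 1 ≤ k) : 0 ≤ del k := by
  by_contra hneg
  push Not at hneg
  obtain ⟨j, hj⟩ := exists_nat_gt (1 / (-del k))
  have h1 := del_le_of_even hk j
  have h2 := del_lower (k + 2 * j)
  have hpos : 0 < -del k := by linarith
  have h3 : (j : ℝ) < ((k + 2 * j : ℕ) : ℝ) + 1 := by
    push_cast
    have : (0 : ℝ) ≤ k := by positivity
    have : (0 : ℝ) ≤ j := by positivity
    linarith
  have h4 : 1 / (((k + 2 * j : ℕ) : ℝ) + 1) < -del k := by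
    rw [div_lt_iff₀ (by positivity)]
    rw [div_lt_iff₀ hpos] at hj
    nlinarith
  linarith

lemma del_pos {k : ℕ} (hk : 1 ≤ k) : 0 < del k :=
  lt_of_le_of_lt (del_nonneg (k := k + 2) (by omega)) (del_anti hk)

noncomputable def inc (k : ℕ) : ℝ := lam (k + 1) - lam k

lemma inc_lt_succ {k : ℕ} (hk : 1 ≤ k) : inc k < inc (k + 1) := by
  have := del_pos hk
  unfold del at this
  unfold inc
  have a : k + 1 + 1 = k + 2 := rfl
  rw [a]
  linarith

lemma inc_lt {a b : ℕ} (ha : 1 ≤ a) (hab : a < b) : inc a < inc b := by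
  induction b, hab using Nat.le_induction with
  | base => exact inc_lt_succ ha
  | succ b hb ih =>
    exact lt_trans ih (inc_lt_succ (by omega))

lemma inc_le {a b : ℕ} (ha : 1 ≤ a) (hab : a ≤ b) : inc a ≤ inc b := by
  rcases Nat.eq_or_lt_of_le hab with h | h
  · rw [h]
  · exact (inc_lt ha h).le

noncomputable def pairSum (m k : ℕ) : ℝ := lam k + lam (m - k)

lemma pairSum_step {m k : ℕ} (hk : 1 ≤ k) (h : 2 * k + 2 ≤ m) :
    pairSum m (k + 1) ≤ pairSum m k := by
  have h1 := inc_le hk (show k ≤ m - k - 1 by omega)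
  unfold inc at h1
  unfold pairSum
  have e1 : m - k - 1 + 1 = m - k := by omega
  have e2 : m - (k + 1) = m - k - 1 := by omega
  rw [e1] at h1
  rw [e2]
  linarith

lemma pairSum_step_lt {m k : ℕ} (hk : 1 ≤ k) (h : 2 * k + 3 ≤ m) :
    pairSum m (k + 1) < pairSum m k := by
  have h1 := inc_lt hk (show k < m - k - 1 by omega)
  unfold inc at h1
  unfold pairSum
  have e1 : m - k - 1 + 1 = m - k := by omega
  have e2 : m - (k + 1) = m - k - 1 := by omega
  rw [e1] at h1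
  rw [e2]
  linarith

lemma pairSum_symm {m k : ℕ} (h : k ≤ m) : pairSum m (m - k) = pairSum m k := by
  unfold pairSum
  have : m - (m - k) = k := by omega
  rw [this]
  ring

lemma pairSum_half_le_of_le {m k : ℕ} (hk : 1 ≤ k) (j : ℕ) (hkj : k ≤ j) (hj : j ≤ m / 2) :
    pairSum m j ≤ pairSum m k := by
  induction j, hkj using Nat.le_induction with
  | base => exact le_rfl
  | succ j hkj ih =>
    have := pairSum_step (m := m) (k := j) (by omega) (by omega)
    exact le_trans this (ih (by omega))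

theorem pairSum_half_le {m k : ℕ} (hk : 1 ≤ k) (hkm : k < m) :
    pairSum m (m / 2) ≤ pairSum m k := by
  rcases Nat.lt_or_ge (m / 2) k with h | h
  · rw [← pairSum_symm hkm.le]
    exact pairSum_half_le_of_le (by omega) _ (by omega) le_rfl
  · exact pairSum_half_le_of_le hk _ h le_rfl

end Vale.Agent.P224
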