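import Vale.Agent.P224.Seq

namespace Vale.Agent.P224

open Real Set MeasureTheory

lemma sphereVol_eq (n : ℕ) :
    sphereVol n = 2 * π ^ (((n : ℝ) + 1) / 2) / Gamma (((n : ℝ) + 1) / 2) := by
  unfold sphereVol
  rw [Measure.toSphere_apply_univ, EuclideanSpace.volume_ball]
  simp only [finrank_euclideanSpace, Fintype.card_fin, ENNReal.ofReal_one, one_pow, one_mul]
  have h0 : (0 : ℝ) < ((n : ℝ) + 1) / 2 := by positivity
  have hG : 0 < Gamma (((n : ℝ) + 1) / 2) := Real.Gamma_pos_of_pos h0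
  have hnn : 0 ≤ √π ^ (n + 1) / Gamma (((n + 1 : ℕ) : ℝ) / 2 + 1) := by
    apply div_nonneg (by positivity)
    exact (Real.Gamma_pos_of_pos (by positivity)).le
  rw [ENNReal.toReal_mul, ENNReal.toReal_ofReal hnn, ENNReal.toReal_natCast]
  have e1 : ((n + 1 : ℕ) : ℝ) / 2 + 1 = ((n : ℝ) + 1) / 2 + 1 := by push_cast; ring
  rw [e1, Real.Gamma_add_one h0.ne']
  have e2 : √π ^ (n + 1) = π ^ (((n : ℝ) + 1) / 2) := by
    rw [Real.sqrt_eq_rpow, ← Real.rpow_natCast, ← Real.rpow_mul Real.pi_pos.le]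
    congr 1
    push_cast
    ring
  rw [e2]
  push_cast
  field_simp

lemma sphereVol_pos (n : ℕ) : 0 < sphereVol n := by
  rw [sphereVol_eq]
  have h0 : (0 : ℝ) < ((n : ℝ) + 1) / 2 := by positivity
  have hG : 0 < Gamma (((n : ℝ) + 1) / 2) := Real.Gamma_pos_of_pos h0
  have := Real.pi_pos
  positivity

lemma log_sphereVol (n : ℕ) :
    log (sphereVol n) = log 2 + (((n : ℝ) + 1) / 2) * log π - gam n := by
  rw [sphereVol_eq]
  have h0 : (0 : ℝ) < ((n : ℝ) + 1) / 2 := by positivity
  have hG : 0 < Gamma (((n : ℝ) + 1) / 2) := Real.Gamma_pos_of_pos h0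
  have hpi := Real.pi_pos
  rw [Real.log_div (by positivity) hG.ne', Real.log_mul (by norm_num) (by positivity),
    Real.log_rpow hpi]
  rfl

lemma cliffordVol_pos {m k : ℕ} (hk : 1 ≤ k) (hkm : k < m) : 0 < cliffordVol m k := by
  unfold cliffordVol
  have h1 : (0 : ℝ) < k := by exact_mod_cast hk
  have h2 : (0 : ℝ) < (m : ℝ) - k := by
    have : (k : ℝ) < m := by exact_mod_cast hkm
    linarith
  have h3 : (0 : ℝ) < m := by linarith
  have := sphereVol_pos k
  have := sphereVol_pos (m - k)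
  positivity

lemma log_cliffordVol {m k : ℕ} (hk : 1 ≤ k) (hkm : k < m) :
    log (cliffordVol m k) = pairSum m k +
      (2 * log 2 + (((m : ℝ) + 2) / 2) * log π - (m : ℝ) / 2 * log m) := by
  have h1 : (0 : ℝ) < k := by exact_mod_cast hk
  have hkm' : (k : ℝ) < m := by exact_mod_cast hkm
  have h2 : (0 : ℝ) < (m : ℝ) - k := by linarith
  have h3 : (0 : ℝ) < m := by linarith
  have s1 := sphereVol_pos k
  have s2 := sphereVol_pos (m - k)
  have hcast : ((m - k : ℕ) : ℝ) = (m : ℝ) - k := by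
    rw [Nat.cast_sub hkm.le]
  unfold cliffordVol
  rw [Real.log_mul (by positivity) s2.ne', Real.log_mul (by positivity) s1.ne',
    Real.log_mul (by positivity) (by positivity), Real.log_rpow (by positivity),
    Real.log_rpow (by positivity), Real.log_div h1.ne' h3.ne', Real.log_div h2.ne' h3.ne',
    log_sphereVol, log_sphereVol]
  unfold pairSum lam
  rw [hcast]
  ring

theorem cliffordVol_half_le {m k : ℕ} (hk : 1 ≤ k) (hkm : k < m) :
    cliffordVol m (m / 2) ≤ cliffordVol m k := by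
  have hm : 2 ≤ m := by omega
  have h1 : 1 ≤ m / 2 := by omega
  have h2 : m / 2 < m := by omega
  rw [← Real.log_le_log_iff (cliffordVol_pos h1 h2) (cliffordVol_pos hk hkm),
    log_cliffordVol h1 h2, log_cliffordVol hk hkm]
  have := pairSum_half_le hk hkm
  linarith

end Vale.Agent.P224
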